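import Crest.Agent.R213.Iface

/-! Row 213, block D: the renewal kernels converge. -/

set_option autoImplicit false
open Filter Topology

noncomputable section
namespace Crest.Agent.R213.D

variable {E : Type} [AddCommGroup E] [Module ℝ E] {d : ℕ}

/-- the contraction -/
def Rm (S : ℕ → E →ₗ[ℝ] E) (l : ℕ → E →ₗ[ℝ] (Fin d → ℝ)) (A : ℕ → (Fin d → ℝ) →ₗ[ℝ] E) (k : ℕ) :
    E →ₗ[ℝ] E := S k ∘ₗ (LinearMap.id - A k ∘ₗ l k)

/-- `m` steps from scale `j` -/
def Pm (S : ℕ → E →ₗ[ℝ] E) (l : ℕ → E →ₗ[ℝ] (Fin d → ℝ)) (A : ℕ → (Fin d → ℝ) →ₗ[ℝ] E) (j : ℕ) :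
    ℕ → E →ₗ[ℝ] E
  | 0 => LinearMap.id
  | m + 1 => Rm S l A (j + m) ∘ₗ Pm S l A j m

/-- the renewal kernel -/
def Hm (S : ℕ → E →ₗ[ℝ] E) (l : ℕ → E →ₗ[ℝ] (Fin d → ℝ)) (A : ℕ → (Fin d → ℝ) →ₗ[ℝ] E) (j m : ℕ) :
    (Fin d → ℝ) →L[ℝ] (Fin d → ℝ) :=
  LinearMap.toContinuousLinearMap (l (j + 1 + m) ∘ₗ Pm S l A (j + 1) m ∘ₗ S j ∘ₗ A j)

variable {N O L : ℕ → Seminorm ℝ E} {S : ℕ → E →ₗ[ℝ] E} {l : ℕ → E →ₗ[ℝ] (Fin d → ℝ)}
  {A : ℕ → (Fin d → ℝ) →ₗ[ℝ] E} {Tr : ℕ → ℕ → E →ₗ[ℝ] E} {f : ℕ → E → E} {θ ϱ B ε : ℝ}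

theorem Rm_apply (k : ℕ) (u : E) : Rm S l A k u = S k (u - A k (l k u)) := rfl

theorem Pm_succ (j m : ℕ) (u : E) : Pm S l A j (m + 1) u = Rm S l A (j + m) (Pm S l A j m u) := rfl

theorem Hm_apply (j m : ℕ) (α : Fin d → ℝ) :
    Hm S l A j m α = l (j + 1 + m) (Pm S l A (j + 1) m (S j (A j α))) := rfl

variable (h : AbsHyp N O L S l A Tr f θ ϱ B ε)
include h

theorem B_nonneg : 0 ≤ B := zero_le_one.trans h.B_pos

theorem P_N (j m : ℕ) (u : E) : N (j + m) (Pm S l A j m u) ≤ θ ^ m * N j u := by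
  induction m with
  | zero => simp [Pm]
  | succ m ih =>
    refine (h.contr (j + m) _).trans ?_
    rw [pow_succ', mul_assoc]
    exact mul_le_mul_of_nonneg_left ih h.θ_nonneg

theorem SA_N (j : ℕ) (α : Fin d → ℝ) : N (j + 1) (S j (A j α)) ≤ B ^ 2 * ‖α‖ := by
  refine (h.S_N _ _).trans ?_
  rw [sq, mul_assoc]
  exact mul_le_mul_of_nonneg_left (h.A_N _ _) (B_nonneg h)

theorem norm_H (j m : ℕ) : ‖Hm S l A j m‖ ≤ B ^ 3 * θ ^ m := by
  have := B_nonneg h
  have := h.θ_nonneg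
  refine ContinuousLinearMap.opNorm_le_bound _ (by positivity) fun α => ?_
  calc _ ≤ B * (θ ^ m * (B ^ 2 * ‖α‖)) := by
        refine (h.l_N _ _).trans (mul_le_mul_of_nonneg_left ((P_N h _ _ _).trans ?_) (B_nonneg h))
        exact mul_le_mul_of_nonneg_left (SA_N h j α) (by positivity)
    _ = _ := by ring

theorem l_small {ι : Type} {F : Filter ι} {k : ι → ℕ} {x : ι → E} {D : ℝ}
    (hN : ∀ᶠ a in F, N (k a) (x a) ≤ D) (hL : Tendsto (fun a => L (k a) (x a)) F (𝓝 0)) :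
    Tendsto (fun a => ‖l (k a) (x a)‖) F (𝓝 0) := by
  refine tendsto_order.2 ⟨fun c hc => Eventually.of_forall fun a => hc.trans_le (norm_nonneg _),
    fun c hc => ?_⟩
  obtain ⟨C, hC⟩ := h.l_L (c / 2 / (|D| + 1)) (by positivity)
  have h1 := hL.const_mul C
  rw [mul_zero] at h1
  filter_upwards [hN, (tendsto_order.1 h1).2 (c / 2) (by positivity)] with a h2 h3
  have h4 : c / 2 / (|D| + 1) * N (k a) (x a) ≤ c / 2 / (|D| + 1) * (|D| + 1) :=
    mul_le_mul_of_nonneg_left (by linarith [le_abs_self D]) (by positivity)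
  rw [div_mul_cancel₀ _ (by positivity)] at h4
  linarith [hC (k a) (x a)]

theorem L_corr (k : ℕ) (x : E) (β : Fin d → ℝ) : L k (x + A k β) ≤ L k x + B * ‖β‖ :=
  (map_add_le_add _ _ _).trans (by linarith [h.L_N k (A k β), h.A_N k β])

theorem N_corr (k : ℕ) (x : E) (α : Fin d → ℝ) :
    N k (x + A k (α - l k x)) ≤ N k x + B * (‖α‖ + B * N k x) := by
  refine (map_add_le_add _ _ _).trans (add_le_add_right ((h.A_N _ _).trans ?_) _)
  exact mul_le_mul_of_nonneg_left ((norm_sub_le _ _).trans (by linarith [h.l_N k x])) (B_nonneg h)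

theorem S_close {ι : Type} {F : Filter ι} {j j' : ι → ℕ} {x x' : ι → E} {D : ℝ}
    (hle : ∀ a, j a ≤ j' a) (hj : Tendsto j F atTop) (hx' : ∀ a, N (j' a) (x' a) ≤ D)
    (h0 : Tendsto (fun a => L (j a) (x a - Tr (j a) (j' a) (x' a))) F (𝓝 0)) :
    Tendsto (fun a => L (j a + 1) (S (j a) (x a) - Tr (j a + 1) (j' a + 1) (S (j' a) (x' a)))) F (𝓝 0) := by
  have h1 := (h0.const_mul B).add
    ((((tendsto_pow_atTop_nhds_zero_of_lt_one h.ϱ_nonneg h.ϱ_lt).comp hj).const_mul B).mul_const D)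
  simp only [mul_zero, zero_mul, add_zero] at h1
  refine squeeze_zero (fun a => apply_nonneg _ _) (fun a => (h.Tr_S _ _ (hle a) _ _).trans ?_) h1
  have := B_nonneg h
  have := h.ϱ_nonneg
  exact add_le_add_right (mul_le_mul_of_nonneg_left (hx' a) (by positivity)) _

theorem R_close {ι : Type} {F : Filter ι} {j j' : ι → ℕ} {x x' : ι → E} {D : ℝ}
    (hle : ∀ a, j a ≤ j' a) (hj : Tendsto j F atTop) (hx : ∀ a, N (j a) (x a) ≤ D)
    (hx' : ∀ a, N (j' a) (x' a) ≤ D)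
    (h0 : Tendsto (fun a => L (j a) (x a - Tr (j a) (j' a) (x' a))) F (𝓝 0)) :
    Tendsto (fun a => ‖l (j a) (x a - Tr (j a) (j' a) (x' a))‖) F (𝓝 0) ∧
    Tendsto (fun a => L (j a + 1) (Rm S l A (j a) (x a) - Tr (j a + 1) (j' a + 1) (Rm S l A (j' a) (x' a))))
      F (𝓝 0) := by
  have hB := B_nonneg h
  have h1 := l_small h (D := D + B * D) (Eventually.of_forall fun a => (map_sub_le_add _ _ _).trans
    (add_le_add (hx a) ((h.Tr_N _ _ (hle a) _).trans (mul_le_mul_of_nonneg_left (hx' a) hB)))) h0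
  refine ⟨h1, S_close h (D := D + B * (B * D)) (x := fun a => x a - A (j a) (l (j a) (x a)))
    (x' := fun a => x' a - A (j' a) (l (j' a) (x' a))) hle hj (fun a => ?_) ?_⟩
  · have := N_corr h (j' a) (x' a) 0
    rw [zero_sub, map_neg, ← sub_eq_add_neg, norm_zero, zero_add] at this
    refine this.trans ?_
    gcongr <;> exact hx' a
  · have h2 := h0.add (h1.const_mul B)
    rw [mul_zero, add_zero] at h2
    refine squeeze_zero (fun a => apply_nonneg _ _) (fun a => ?_) h2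
    have := L_corr h (j a) (x a - Tr (j a) (j' a) (x' a)) (-l (j a) (x a - Tr (j a) (j' a) (x' a)))
    rw [norm_neg] at this
    refine le_trans (le_of_eq ?_) this
    congr 1
    simp only [map_sub, map_neg, h.l_Tr _ _ (hle a), h.Tr_A _ _ (hle a)]
    abel

theorem P_close {ι : Type} {F : Filter ι} {j j' : ι → ℕ} {x x' : ι → E} {D : ℝ}
    (hle : ∀ a, j a ≤ j' a) (hj : Tendsto j F atTop) (hx : ∀ a, N (j a) (x a) ≤ D)
    (hx' : ∀ a, N (j' a) (x' a) ≤ D)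
    (h0 : Tendsto (fun a => L (j a) (x a - Tr (j a) (j' a) (x' a))) F (𝓝 0)) (m : ℕ) :
    Tendsto (fun a => ‖l (j a + m) (Pm S l A (j a) m (x a)) - l (j' a + m) (Pm S l A (j' a) m (x' a))‖)
      F (𝓝 0) := by
  have hP : ∀ j m u, N (j + m) (Pm S l A j m u) ≤ N j u := fun j m u => (P_N h j m u).trans
    (mul_le_of_le_one_left (apply_nonneg _ _) (pow_le_one₀ h.θ_nonneg h.θ_lt.le))
  have step := fun m => R_close h (F := F) (j := fun a => j a + m) (j' := fun a => j' a + m)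
    (x := fun a => Pm S l A (j a) m (x a)) (x' := fun a => Pm S l A (j' a) m (x' a))
    (fun a => Nat.add_le_add_right (hle a) m) ((tendsto_add_atTop_nat m).comp hj)
    (fun a => (hP _ _ _).trans (hx a)) (fun a => (hP _ _ _).trans (hx' a))
  have key : ∀ m, Tendsto (fun a => L (j a + m) (Pm S l A (j a) m (x a) -
      Tr (j a + m) (j' a + m) (Pm S l A (j' a) m (x' a)))) F (𝓝 0) := by
    intro m
    induction m with
    | zero => exact h0
    | succ m ih => exact (step m ih).2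
  refine (step m (key m)).1.congr fun a => ?_
  rw [map_sub, h.l_Tr _ _ (Nat.add_le_add_right (hle a) m)]

theorem exists_G : ∃ G : ℕ → (Fin d → ℝ) →L[ℝ] (Fin d → ℝ), (∀ m, ‖G m‖ ≤ B ^ 3 * θ ^ m) ∧
    ∀ m, Tendsto (fun j => Hm S l A j m) atTop (𝓝 (G m)) := by
  have hB := B_nonneg h
  have hc : ∀ m, CauchySeq fun j => Hm S l A j m := by
    intro m
    let ι := {a : ℕ × ℕ × (Fin d → ℝ) // a.1 ≤ a.2.1 ∧ ‖a.2.2‖ = 1}
    have hj : Tendsto (fun a : ι => a.1.1) (comap (fun a : ι => a.1.1) atTop) atTop := tendsto_comap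
    have h1 := P_close h (j := fun a : ι => a.1.1 + 1) (j' := fun a => a.1.2.1 + 1)
      (x := fun a => S a.1.1 (A a.1.1 a.1.2.2)) (x' := fun a => S a.1.2.1 (A a.1.2.1 a.1.2.2)) (D := B ^ 2)
      (fun a => Nat.add_le_add_right a.2.1 1) ((tendsto_add_atTop_nat 1).comp hj)
      (fun a => (SA_N h _ _).trans (by rw [a.2.2, mul_one])) (fun a => (SA_N h _ _).trans (by rw [a.2.2, mul_one]))
      (S_close h (D := B) (fun a => a.2.1) hj (fun a => (h.A_N _ _).trans (by rw [a.2.2, mul_one])) (by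
        refine tendsto_const_nhds.congr fun a => ?_
        rw [h.Tr_A _ _ a.2.1, sub_self, map_zero])) m
    refine Metric.cauchySeq_iff'.2 fun η hη => ?_
    obtain ⟨J, hJ⟩ := eventually_atTop.1 (eventually_comap.1 ((tendsto_order.1 h1).2 (η / 2) (by positivity)))
    refine ⟨J, fun n hn => ?_⟩
    rw [dist_comm, dist_eq_norm]
    refine (ContinuousLinearMap.opNorm_le_of_unit_norm (C := η / 2) (by positivity) fun α hα => ?_).trans_lt
      (by linarith)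
    exact (hJ J le_rfl ⟨(J, n, α), hn, hα⟩ rfl).le
  choose G hG using fun m => cauchySeq_tendsto_of_complete (hc m)
  exact ⟨G, fun m => le_of_tendsto' (hG m).norm fun j => norm_H h j m, hG⟩

end Crest.Agent.R213.D
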