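import Crest.Agent.R213.D.Wiener

/-! Row 213, block D: a bounded approximate right inverse of the renewal operator. -/

set_option autoImplicit false
open Filter Topology Matrix

noncomputable section
namespace Crest.Agent.R213.D

theorem mulVec_le {d : ℕ} {X : Matrix (Fin d) (Fin d) ℝ} {c : ℝ} (hc : 0 ≤ c) (h : ∀ a b, |X a b| ≤ c)
    (v : Fin d → ℝ) : ‖X *ᵥ v‖ ≤ d * (c * ‖v‖) := by
  refine (pi_norm_le_iff_of_nonneg (by positivity)).2 fun a => ?_
  change ‖∑ b, X a b * v b‖ ≤ _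
  refine (norm_sum_le _ _).trans ((Finset.sum_le_card_nsmul _ _ (c * ‖v‖) fun b _ => ?_).trans
    (le_of_eq (by rw [Finset.card_univ, Fintype.card_fin, nsmul_eq_mul])))
  rw [norm_mul]
  exact mul_le_mul (h a b) (norm_le_pi_norm v b) (norm_nonneg _) hc

theorem sum_q_le {q : ℝ} (h0 : 0 ≤ q) (h1 : q < 1) : ∃ K : ℝ, 0 ≤ K ∧ ∀ (T : Finset ℕ) (k : ℕ),
    ∑ i ∈ T, q ^ ((k : ℤ) - i).natAbs ≤ K := by
  have hs : Summable fun n : ℤ => q ^ n.natAbs :=
    Summable.of_nat_of_neg (by simpa using summable_geometric_of_lt_one h0 h1)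
      (by simpa using summable_geometric_of_lt_one h0 h1)
  refine ⟨∑' n : ℤ, q ^ n.natAbs, tsum_nonneg fun n => by positivity, fun T k => ?_⟩
  rw [← Finset.sum_image (f := fun n : ℤ => q ^ n.natAbs) (g := fun i : ℕ => (k : ℤ) - i)
    fun i _ j _ h => by simpa using h]
  exact hs.sum_le_tsum _ fun n _ => by positivity

theorem conv_le {d : ℕ} {X : ℤ → Matrix (Fin d) (Fin d) ℝ} {r q C K κ : ℝ} (hr : 0 < r) (hq : 0 ≤ q)
    (hC : 0 ≤ C) (hκ : 0 ≤ κ) (hX : ∀ n a b, |X n a b| ≤ C * (r ^ n * q ^ n.natAbs)) {T : Finset ℕ} {k : ℕ}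
    (hK : ∑ i ∈ T, q ^ ((k : ℤ) - i).natAbs ≤ K) {s : ℕ → Fin d → ℝ} (hs : ∀ i ∈ T, ‖s i‖ ≤ κ * r ^ i) :
    ‖∑ i ∈ T, X ((k : ℤ) - i) *ᵥ s i‖ ≤ d * C * K * κ * r ^ k := by
  calc _ ≤ ∑ i ∈ T, d * C * κ * r ^ k * q ^ ((k : ℤ) - i).natAbs := by
        refine (norm_sum_le _ _).trans (Finset.sum_le_sum fun i hi => ?_)
        refine (mulVec_le (by positivity) (hX _) _).trans ?_
        calc _ ≤ d * (C * (r ^ ((k : ℤ) - i) * q ^ ((k : ℤ) - i).natAbs) * (κ * r ^ i)) := by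
              gcongr
              exact hs i hi
          _ = _ := by
              rw [zpow_sub₀ hr.ne', zpow_natCast, zpow_natCast]
              field_simp
    _ ≤ d * C * κ * r ^ k * K := by
        rw [← Finset.mul_sum]
        exact mul_le_mul_of_nonneg_left hK (by positivity)
    _ = _ := by ring

theorem lin {d : ℕ} (G : ℕ → (Fin d → ℝ) →L[ℝ] (Fin d → ℝ)) {D θ : ℝ} (h0 : 0 ≤ θ) (h1 : θ < 1)
    (hD : 0 ≤ D) (hG : ∀ m, ‖G m‖ ≤ D * θ ^ m) :
    ∃ r w : ℝ, θ < r ∧ r < 1 ∧ 0 < w ∧ ∀ δ : ℝ, 0 < δ → ∀ᶠ M in atTop, ∀ T : Finset ℕ,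
      ∃ Λ : (ℕ → Fin d → ℝ) → ℕ → Fin d → ℝ, Continuous Λ ∧ ∀ s (κ : ℝ), 0 ≤ κ →
        (∀ k ∈ T, ‖s k‖ ≤ κ * r ^ k) → (∀ k, ‖Λ s k‖ ≤ w * κ * r ^ k) ∧ ∀ j, j + M ∈ T →
          ‖Λ s (j + M) - s (j + M) - ∑ i ∈ Finset.range M, G (M - 1 - i) (Λ s (j + i))‖ ≤
            δ * κ * r ^ (j + M) := by
  obtain ⟨r, q, t, C, a1, a2, a3, a4, a5, a6, a7, W, hW, hE⟩ :=
    wiener (fun m => LinearMap.toMatrix' (G m).toLinearMap) h0 h1 (fun m a b => by
      rw [LinearMap.toMatrix'_apply]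
      refine (norm_le_pi_norm _ a).trans (((G m).le_opNorm _).trans ?_)
      refine (mul_le_of_le_one_right (norm_nonneg _) ?_).trans (hG m)
      rw [Pi.norm_single, norm_one]) hD
  obtain ⟨K, hK0, hK⟩ := sum_q_le a3 a4
  have hr : 0 < r := h0.trans_lt a1
  refine ⟨r, d * C * K + 1, a1, a2, by positivity, fun δ hδ => ?_⟩
  have ht : Tendsto (fun M : ℕ => d * (C * t ^ M) * K) atTop (𝓝 (d * (C * 0) * K)) :=
    (((tendsto_pow_atTop_nhds_zero_of_lt_one a5 a6).const_mul C).const_mul _).mul_const K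
  rw [mul_zero, mul_zero, zero_mul] at ht
  filter_upwards [ht.eventually_le_const hδ] with M hM T
  refine ⟨fun s k => ∑ i ∈ T, W ((k : ℤ) - i) *ᵥ s i, by fun_prop, fun s κ hκ hs => ⟨fun k => ?_, fun j hj => ?_⟩⟩
  · refine (conv_le hr a3 a7 hκ hW (hK T k) hs).trans ?_
    gcongr
    linarith
  · refine le_trans (le_of_eq ?_) ((conv_le hr a3 (by positivity) hκ (hE M) (hK T (j + M)) hs).trans
      (by gcongr))
    congr 1
    simp only [sub_mulVec, Finset.sum_sub_distrib, Matrix.sum_mulVec]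
    congr 1
    · congr 1
      rw [Finset.sum_eq_single_of_mem _ hj]
      · simp
      · intro i _ hi
        rw [if_neg (by omega), zero_mulVec]
    · rw [Finset.sum_comm, ← Finset.sum_range_reflect]
      refine Finset.sum_congr rfl fun m hm => ?_
      have := Finset.mem_range.1 hm
      rw [map_sum, show M - 1 - (M - 1 - m) = m by omega]
      refine Finset.sum_congr rfl fun i _ => ?_
      rw [← mulVec_mulVec, LinearMap.toMatrix'_mulVec,
        show ((j + M : ℕ) : ℤ) - i - (m + 1 : ℕ) = (j + (M - 1 - m) : ℕ) - i by omega]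
      rfl

end Crest.Agent.R213.D
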