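import Crest.Agent.R213.D.Orb
import Crest.Agent.R213.D.Lin
import Crest.Agent.Lib.Brouwer.Basic

/-! Row 213, block D: the abstract orbit lemma. -/

set_option autoImplicit false
open Filter Topology Set Metric

noncomputable section
namespace Crest.Agent.R213
namespace D

variable {E : Type} [AddCommGroup E] [Module ℝ E] {d : ℕ}
  {N O L : ℕ → Seminorm ℝ E} {S : ℕ → E →ₗ[ℝ] E} {l : ℕ → E →ₗ[ℝ] (Fin d → ℝ)}
  {A : ℕ → (Fin d → ℝ) →ₗ[ℝ] E} {Tr : ℕ → ℕ → E →ₗ[ℝ] E} {f : ℕ → E → E} {θ ϱ B ε : ℝ}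

theorem est (h : AbsHyp N O L S l A Tr f θ ϱ B ε) {g : ℕ → E → E} {α : ℕ → Fin d → ℝ}
    {G : ℕ → (Fin d → ℝ) →L[ℝ] (Fin d → ℝ)} {a b e e' δ r : ℝ} {M j : ℕ} (hr : 0 ≤ r) (hr1 : r ≤ 1)
    (ha : 0 ≤ a) (hδ : 0 ≤ δ) (he' : 0 ≤ e') (he : θ * e' + e ≤ e' * r) (hα : ∀ k, ‖α k‖ ≤ a * r ^ k)
    (h1 : N j (eta l A g α j) ≤ b)
    (h2 : ∀ k, N (k + 1) (eta l A g α (k + 1) - S k (uu l A g α k)) ≤ e * r ^ k)
    (h3 : ∀ i, ∀ m ∈ Finset.range M, ‖Hm S l A (j + i) m - G m‖ ≤ δ) :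
    ‖l (j + M) (eta l A g α (j + M)) - ∑ i ∈ Finset.range M, G (M - 1 - i) (α (j + i))‖ ≤
      B * (θ ^ M * b + e' * r ^ (j + M)) + M * (δ * (a * r ^ j)) := by
  have hB := B_nonneg h
  have h0 := h.θ_nonneg
  have k1 := duhamel h (η := eta l A g α) (y := fun k => S k (A k (α k))) hr he' he
    (fun k => by rw [← S_uu]; exact h2 k) j M
  have k2 := (h.l_N _ _).trans (mul_le_mul_of_nonneg_left k1 hB)
  have e1 : l (j + M) (∑ i ∈ Finset.range M, Pm S l A (j + i + 1) (M - 1 - i) (S (j + i) (A (j + i) (α (j + i))))) =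
      ∑ i ∈ Finset.range M, Hm S l A (j + i) (M - 1 - i) (α (j + i)) := by
    rw [map_sum]
    refine Finset.sum_congr rfl fun i hi => ?_
    have := Finset.mem_range.1 hi
    rw [Hm_apply, show j + i + 1 + (M - 1 - i) = j + M by omega]
  rw [map_sub, e1] at k2
  refine (norm_sub_le_norm_sub_add_norm_sub _ _ _).trans (add_le_add (k2.trans (by gcongr)) ?_)
  rw [← Finset.sum_sub_distrib]
  refine (norm_sum_le _ _).trans ((Finset.sum_le_card_nsmul _ _ (δ * (a * r ^ j)) fun i hi => ?_).trans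
    (le_of_eq (by rw [Finset.card_range, nsmul_eq_mul])))
  have := Finset.mem_range.1 hi
  rw [← sub_apply]
  refine (ContinuousLinearMap.le_opNorm _ _).trans (mul_le_mul (h3 i _ (Finset.mem_range.2 (by omega)))
    ((hα _).trans ?_) (norm_nonneg _) hδ)
  exact mul_le_mul_of_nonneg_left (pow_le_pow_of_le_one hr hr1 (Nat.le_add_right j i)) ha

/-- Brouwer's theorem and compactness -/
theorem fixed {V : Type} [NormedAddCommGroup V] [NormedSpace ℝ V] [FiniteDimensional ℝ V]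
    {ψ : (ℕ → V) → ℕ → V} {p b : ℕ → ℝ} (hp : ∀ k, 0 ≤ p k) {k0 : ℕ}
    (hψ : ∀ k, ContinuousOn (fun α => ψ α k) {α | ∀ k, ‖α k‖ ≤ b k})
    (hΛ : ∀ T : Finset ℕ, ∃ Λ : (ℕ → V) → ℕ → V, Continuous Λ ∧ ∀ s, (∀ k ∈ T, ‖s k‖ ≤ p k) →
      (∀ k, ‖Λ s k‖ ≤ b k) ∧ ∀ k ∈ T, k0 ≤ k → ‖s k - (Λ s k - ψ (Λ s) k)‖ ≤ p k) :
    ∃ α : ℕ → V, (∀ k, ‖α k‖ ≤ b k) ∧ ∀ k, k0 ≤ k → α k = ψ α k := by
  have hfin : ∀ K, ∃ α : ℕ → V, (∀ k, ‖α k‖ ≤ b k) ∧ ∀ k, k0 ≤ k → k < K → α k = ψ α k := by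
    intro K
    obtain ⟨Λ, h1, h2⟩ := hΛ (Finset.Ico k0 K)
    let ex : (Finset.Ico k0 K → V) → ℕ → V := fun σ k => if hk : k ∈ Finset.Ico k0 K then σ ⟨k, hk⟩ else 0
    have hex : Continuous ex := continuous_pi fun k => by
      by_cases hk : k ∈ Finset.Ico k0 K
      · simp only [ex, dif_pos hk]; exact continuous_apply _
      · simp only [ex, dif_neg hk]; exact continuous_const
    have hex' : ∀ σ (i : Finset.Ico k0 K), ex σ i = σ i := fun σ i => dif_pos i.2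
    have hb : ∀ σ ∈ Set.pi univ fun i : Finset.Ico k0 K => closedBall (0 : V) (p i),
        ∀ k ∈ Finset.Ico k0 K, ‖ex σ k‖ ≤ p k := fun σ hσ k hk => by
      rw [hex' σ ⟨k, hk⟩]
      exact mem_closedBall_zero_iff.1 (hσ ⟨k, hk⟩ trivial)
    obtain ⟨σ, hσ, e⟩ := Lib.Brouwer.exists_fixedPoint_of_isCompact_convex
      (isCompact_univ_pi fun i : Finset.Ico k0 K => isCompact_closedBall (0 : V) (p i))
      (convex_pi fun i _ => convex_closedBall _ _) ⟨0, fun i _ => mem_closedBall_self (hp i)⟩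
      (fun σ i => σ i - (Λ (ex σ) i - ψ (Λ (ex σ)) i))
      (continuousOn_pi.2 fun i => (continuous_apply i).continuousOn.sub
        (((continuous_apply (i : ℕ)).comp (h1.comp hex)).continuousOn.sub
          ((hψ i).comp (h1.comp hex).continuousOn fun σ hσ => (h2 _ (hb σ hσ)).1)))
      (fun σ hσ i _ => mem_closedBall_zero_iff.2 (by
        have := (h2 _ (hb σ hσ)).2 i i.2 (Finset.mem_Ico.1 i.2).1
        rwa [hex'] at this))
    refine ⟨Λ (ex σ), (h2 _ (hb σ hσ)).1, fun k a1 a2 => ?_⟩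
    exact sub_eq_zero.1 (sub_eq_self.1 (congrFun e ⟨k, Finset.mem_Ico.2 ⟨a1, a2⟩⟩))
  have hC : IsCompact {α : ℕ → V | ∀ k, ‖α k‖ ≤ b k} := by
    have := FiniteDimensional.proper_real V
    convert isCompact_univ_pi fun k => isCompact_closedBall (0 : V) (b k) using 1
    ext α
    simp
  obtain ⟨α, h1, h2⟩ := hC.inter_iInter_nonempty
    (fun n => {α ∈ {α : ℕ → V | ∀ k, ‖α k‖ ≤ b k} | α (k0 + n) = ψ α (k0 + n)})
    (fun n => hC.isClosed.isClosed_eq (continuous_apply _).continuousOn (hψ _)) fun s => by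
      obtain ⟨α, h1, h2⟩ := hfin (k0 + s.sup id + 1)
      refine ⟨α, h1, mem_iInter₂.2 fun n hn => ⟨h1, h2 _ (Nat.le_add_right _ _) ?_⟩⟩
      have : n ≤ s.sup id := Finset.le_sup (f := id) hn
      omega
  refine ⟨α, h1, fun k hk => ?_⟩
  obtain ⟨n, rfl⟩ := Nat.exists_eq_add_of_le hk
  exact (mem_iInter.1 h2 n).2

end D

open D in
theorem stD : StD := by
  intro E _ _ d N O L S l A Tr f θ ϱ B ε h
  have hB := B_nonneg h
  have hB1 := h.B_pos
  have h0 := h.θ_nonneg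
  have h0' := h.ϱ_nonneg
  have hε := h.ε_pos
  obtain ⟨G, hG, hH⟩ := exists_G h
  obtain ⟨r, w, r1, r2, hw, hlin⟩ := lin G (θ := max θ ϱ) (D := B ^ 3) (le_max_of_le_left h0)
    (max_lt h.θ_lt h.ϱ_lt) (by positivity) fun m => (hG m).trans (by gcongr; exact le_max_left _ _)
  obtain ⟨r1, r1'⟩ := max_lt_iff.1 r1
  have hr : 0 < r := h0.trans_lt r1
  obtain ⟨c, hc, horb⟩ := orb_bound h r1 r2
  obtain ⟨γ, hγ, eγ⟩ : ∃ γ : ℝ, 0 < γ ∧ θ * γ + 1 = γ * r :=
    ⟨1 / (r - θ), one_div_pos.2 (by linarith), by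
      have : r - θ ≠ 0 := by linarith
      field_simp; ring⟩
  obtain ⟨τ, τ0, τ1, τ2⟩ : ∃ τ : ℝ, 0 < τ ∧ τ ≤ 1 ∧ B * γ * w * τ ≤ 1 / 4 :=
    ⟨min 1 (1 / 4 / (B * γ * w)), by positivity, min_le_left _ _,
      (le_div_iff₀' (by positivity)).1 (min_le_right _ _)⟩
  have t1 := (tendsto_pow_atTop_nhds_zero_of_lt_one (r := θ / r) (by positivity)
    ((div_lt_one hr).2 r1)).const_mul (B * c * w)
  rw [mul_zero] at t1
  obtain ⟨M, M1, M2⟩ := ((hlin (1 / 4) (by norm_num)).and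
    (t1.eventually_le_const (show (0 : ℝ) < 1 / 4 by norm_num))).exists
  obtain ⟨δ, δ0, δ1⟩ : ∃ δ : ℝ, 0 < δ ∧ M * w * δ ≤ r ^ M / 4 := by
    refine ⟨r ^ M / 4 / (M * w + 1), by positivity, ?_⟩
    rw [← mul_div_assoc, div_le_iff₀ (by positivity)]
    nlinarith [pow_pos hr M]
  obtain ⟨κ, κ0, κ1, κ2⟩ : ∃ κ : ℝ, 0 < κ ∧ c * (w * κ) ≤ ε ∧ c * (w * κ) ≤ τ := by
    have e : c * (w * (min ε τ / (c * w))) = min ε τ := by field_simp
    exact ⟨min ε τ / (c * w), by positivity, e.le.trans (min_le_left _ _), e.le.trans (min_le_right _ _)⟩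
  have t2 := (tendsto_pow_atTop_nhds_zero_of_lt_one (r := ϱ / r) (by positivity)
    ((div_lt_one hr).2 r1')).const_mul B
  rw [mul_zero] at t2
  obtain ⟨k1, hk1⟩ := eventually_atTop.1 (((eventually_all_finset (Finset.range M)).2 fun m _ =>
    (tendsto_iff_norm_sub_tendsto_zero.1 (hH m)).eventually_le_const δ0).and
    (t2.eventually_le_const (show 0 < τ * (w * κ) / 2 by positivity)))
  have hg := gh h r1' k1
  set g : ℕ → E → E := fun k => if k < k1 then S k else f k with hgdef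
  have hb := fun α => horb g _ (w * κ) τ α hg (by positivity) τ1 κ1 κ2 (hk1 k1 le_rfl).2
  obtain ⟨α, hα, hfix⟩ := fixed (ψ := fun α k => l k (eta l A g α k)) (p := fun k => κ * r ^ k)
    (b := fun k => w * κ * r ^ k) (k0 := k1 + M) (fun k => by positivity)
    (cont_eta h hg (D := c * (w * κ)) fun α hα k => ⟨(hb α hα k).1.trans
      (mul_le_of_le_one_right (by positivity) (pow_le_one₀ hr.le r2.le)), (hb α hα k).2.1, (hb α hα k).2.2.1⟩)
    fun T => by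
      obtain ⟨Λ, l1, l2⟩ := M1 T
      refine ⟨Λ, l1, fun s hs => ⟨(l2 s κ κ0.le hs).1, fun k hk hk' => ?_⟩⟩
      obtain ⟨j, rfl⟩ : ∃ j, k = j + M := ⟨k - M, by omega⟩
      obtain ⟨l3, l4⟩ := l2 s κ κ0.le hs
      have e1 := est h (G := G) (M := M) (j := j) (e' := γ * (τ * (w * κ))) hr.le r2.le (by positivity) δ0.le
        (by positivity) (le_of_eq (by linear_combination (τ * (w * κ)) * eγ)) l3 (hb _ l3 j).1
        (fun k => (hb _ l3 k).2.2.2) fun i => (hk1 (j + i) (by omega)).1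
      have e2 := l4 j hk
      have e3 : B * (θ ^ M * (c * (w * κ) * r ^ j) + γ * (τ * (w * κ)) * r ^ (j + M)) +
          M * (δ * (w * κ * r ^ j)) ≤ 3 / 4 * κ * r ^ (j + M) := by
        have a1 : B * (θ ^ M * (c * (w * κ) * r ^ j)) = B * c * w * (θ / r) ^ M * (κ * r ^ (j + M)) := by
          rw [div_pow, pow_add]; field_simp
        have a2 := mul_le_mul_of_nonneg_right M2 (show 0 ≤ κ * r ^ (j + M) by positivity)
        have a3 := mul_le_mul_of_nonneg_right τ2 (show 0 ≤ κ * r ^ (j + M) by positivity)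
        have a4 := mul_le_mul_of_nonneg_right δ1 (show 0 ≤ κ * r ^ j by positivity)
        rw [pow_add] at *
        linarith
      generalize ∑ i ∈ Finset.range M, G (M - 1 - i) (Λ s (j + i)) = Z at e1 e2
      have e4 : s (j + M) - (Λ s (j + M) - l (j + M) (eta l A g (Λ s) (j + M))) =
          (l (j + M) (eta l A g (Λ s) (j + M)) - Z) - (Λ s (j + M) - s (j + M) - Z) := by abel
      rw [e4]
      refine (norm_sub_le _ _).trans ?_
      linarith
  have hu : ∀ k, k1 + M ≤ k → uu l A g α k = eta l A g α k := fun k hk => by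
    rw [uu, ← hfix k hk, sub_self, map_zero, add_zero]
  refine ⟨k1 + M, eta l A g α, fun k hk => ?_, ?_⟩
  · obtain ⟨-, b2, b3, -⟩ := hb α hα k
    rw [hu k hk] at b2 b3
    refine ⟨b2, b3, ?_⟩
    rw [eta_succ, hu k hk, hgdef]
    simp only [if_neg (show ¬ k < k1 by omega)]
  · have t3 := (tendsto_pow_atTop_nhds_zero_of_lt_one hr.le r2).const_mul (c * (w * κ))
    rw [mul_zero] at t3
    exact squeeze_zero (fun k => apply_nonneg _ _) (fun k => (hb α hα k).1) t3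

end Crest.Agent.R213
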