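import Crest.Agent.R213.D.Ker

/-! Row 213, block D: pseudo-orbits. -/

set_option autoImplicit false
open Filter Topology

noncomputable section
namespace Crest.Agent.R213.D

variable {E : Type} [AddCommGroup E] [Module ℝ E] {d : ℕ}

/-- the pseudo-orbit before the correction -/
def eta (l : ℕ → E →ₗ[ℝ] (Fin d → ℝ)) (A : ℕ → (Fin d → ℝ) →ₗ[ℝ] E) (g : ℕ → E → E)
    (α : ℕ → Fin d → ℝ) : ℕ → E
  | 0 => 0
  | k + 1 => g k (eta l A g α k + A k (α k - l k (eta l A g α k)))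

/-- the pseudo-orbit after the correction -/
def uu (l : ℕ → E →ₗ[ℝ] (Fin d → ℝ)) (A : ℕ → (Fin d → ℝ) →ₗ[ℝ] E) (g : ℕ → E → E)
    (α : ℕ → Fin d → ℝ) (k : ℕ) : E := eta l A g α k + A k (α k - l k (eta l A g α k))

/-- the hypotheses on the nonlinear maps -/
structure GH (N O L : ℕ → Seminorm ℝ E) (S : ℕ → E →ₗ[ℝ] E) (g : ℕ → E → E) (B ε μ r : ℝ) : Prop where
  g_N : ∀ k u, O k u ≤ ε → N k u ≤ ε →
    N (k + 1) (g k u - S k u) ≤ B * (O k u + N k u) * N k u + μ * r ^ k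
  g_O : ∀ k u, O k u ≤ ε → N k u ≤ ε → O (k + 1) (g k u) ≤ O k u + B * N k u + μ * r ^ k
  g_L : ∀ k u u', O k u ≤ ε → N k u ≤ ε → O k u' ≤ ε → N k u' ≤ ε →
    L (k + 1) (g k u - g k u') ≤ B * L k (u - u')

variable {N O L : ℕ → Seminorm ℝ E} {S : ℕ → E →ₗ[ℝ] E} {l : ℕ → E →ₗ[ℝ] (Fin d → ℝ)}
  {A : ℕ → (Fin d → ℝ) →ₗ[ℝ] E} {Tr : ℕ → ℕ → E →ₗ[ℝ] E} {f : ℕ → E → E} {θ ϱ B ε : ℝ}

theorem eta_succ (g : ℕ → E → E) (α : ℕ → Fin d → ℝ) (k : ℕ) :
    eta l A g α (k + 1) = g k (uu l A g α k) := rfl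

theorem S_uu (g : ℕ → E → E) (α : ℕ → Fin d → ℝ) (k : ℕ) :
    S k (uu l A g α k) = Rm S l A k (eta l A g α k) + S k (A k (α k)) := by
  rw [Rm_apply, uu, ← map_add, map_sub]
  congr 1
  abel

variable (h : AbsHyp N O L S l A Tr f θ ϱ B ε)
include h

theorem gh {r : ℝ} (hr : ϱ < r) (k1 : ℕ) :
    GH N O L S (fun k => if k < k1 then S k else f k) B ε (B * (ϱ / r) ^ k1) r := by
  have hB := B_nonneg h
  have h0 := h.ϱ_nonneg
  have hr0 : 0 < r := h0.trans_lt hr
  have key : ∀ k, ¬ k < k1 → B * ϱ ^ k ≤ B * (ϱ / r) ^ k1 * r ^ k := by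
    intro k hk
    have : (ϱ / r) ^ k ≤ (ϱ / r) ^ k1 :=
      pow_le_pow_of_le_one (by positivity) ((div_le_one hr0).2 hr.le) (not_lt.1 hk)
    calc B * ϱ ^ k = B * (ϱ / r) ^ k * r ^ k := by rw [div_pow]; field_simp
      _ ≤ _ := by gcongr
  refine ⟨fun k u h1 h2 => ?_, fun k u h1 h2 => ?_, fun k u u' h1 h2 h3 h4 => ?_⟩
  · split_ifs with hk
    · rw [sub_self, map_zero]; positivity
    · linarith [h.f_N k u h1 h2, key k hk]
  · split_ifs with hk
    · have : 0 ≤ B * (ϱ / r) ^ k1 * r ^ k := by positivity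
      linarith [h.S_O k u]
    · linarith [h.f_O k u h1 h2, key k hk]
  · split_ifs with hk
    · rw [← map_sub]; exact h.S_L _ _
    · exact h.f_L k u u' h1 h2 h3 h4

theorem orb_bound {r : ℝ} (h1 : θ < r) (h2 : r < 1) : ∃ c : ℝ, 0 < c ∧
    ∀ (g : ℕ → E → E) (μ a τ : ℝ) (α : ℕ → Fin d → ℝ), GH N O L S g B ε μ r → 0 ≤ a → τ ≤ 1 →
      c * a ≤ ε → c * a ≤ τ → μ ≤ τ * a / 2 → (∀ k, ‖α k‖ ≤ a * r ^ k) → ∀ k,
      N k (eta l A g α k) ≤ c * a * r ^ k ∧ O k (uu l A g α k) ≤ ε ∧ N k (uu l A g α k) ≤ ε ∧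
        N (k + 1) (eta l A g α (k + 1) - S k (uu l A g α k)) ≤ τ * a * r ^ k := by
  have hB := B_nonneg h
  have h0 := h.θ_nonneg
  have hr : 0 < r := h0.trans_lt h1
  obtain ⟨c₁, p₁, e₁⟩ : ∃ c₁ : ℝ, 0 < c₁ ∧ θ * c₁ + B ^ 2 + 1 = c₁ * r :=
    ⟨(B ^ 2 + 1) / (r - θ), div_pos (by positivity) (by linarith), by
      have : r - θ ≠ 0 := by linarith
      field_simp; ring⟩
  obtain ⟨cu, pu, eu⟩ : ∃ cu : ℝ, 0 ≤ cu ∧ c₁ + B * (1 + B * c₁) = cu := ⟨_, by positivity, rfl⟩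
  obtain ⟨c₂, p₂, e₂⟩ : ∃ c₂ : ℝ, 0 ≤ c₂ ∧ cu + B * cu + 1 = c₂ * (1 - r) :=
    ⟨(cu + B * cu + 1) / (1 - r), div_nonneg (by positivity) (by linarith), by
      have : 1 - r ≠ 0 := by linarith
      field_simp⟩
  have p₃ : 0 ≤ 4 * B * (c₂ + cu) * cu := by positivity
  refine ⟨c₁ + (c₂ + cu) + 4 * B * (c₂ + cu) * cu, by positivity,
    fun g μ a τ α hg ha hτ s1 s2 s3 hα => ?_⟩
  have s1' : (c₂ + cu) * a ≤ ε := le_trans (mul_le_mul_of_nonneg_right (by linarith) ha) s1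
  have s2' : 4 * B * (c₂ + cu) * cu * a ≤ τ := le_trans (mul_le_mul_of_nonneg_right (by linarith) ha) s2
  have step : ∀ k, N k (eta l A g α k) ≤ c₁ * (a * r ^ k) → O k (eta l A g α k) ≤ c₂ * (a - a * r ^ k) →
      O k (uu l A g α k) ≤ ε ∧ N k (uu l A g α k) ≤ ε ∧
      N (k + 1) (eta l A g α (k + 1) - S k (uu l A g α k)) ≤ τ * (a * r ^ k) ∧
      N (k + 1) (eta l A g α (k + 1)) ≤ c₁ * (a * r ^ (k + 1)) ∧
      O (k + 1) (eta l A g α (k + 1)) ≤ c₂ * (a - a * r ^ (k + 1)) := by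
    intro k i1 i2
    have hb0 : 0 ≤ a * r ^ k := by positivity
    have hb1 : a * r ^ k ≤ a := mul_le_of_le_one_right ha (pow_le_one₀ hr.le h2.le)
    have hμ : μ * r ^ k ≤ τ / 2 * (a * r ^ k) := by
      calc _ ≤ τ * a / 2 * r ^ k := by gcongr
        _ = _ := by ring
    have hαk := hα k
    rw [pow_succ, ← mul_assoc a]
    generalize a * r ^ k = b at i1 i2 hb0 hb1 hμ hαk ⊢
    have j0 : B * (‖α k‖ + B * N k (eta l A g α k)) ≤ B * (b + B * (c₁ * b)) := by gcongr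
    have j1 : N k (uu l A g α k) ≤ cu * b := by
      refine (N_corr h _ _ _).trans ?_
      rw [← eu]; linarith
    have j2 : O k (uu l A g α k) ≤ c₂ * (a - b) + cu * b := by
      refine (map_add_le_add _ _ _).trans (add_le_add i2 ((h.A_O _ _).trans ?_))
      refine (mul_le_mul_of_nonneg_left ((norm_sub_le _ _).trans
        (add_le_add_right (h.l_N _ _) _)) hB).trans (j0.trans ?_)
      rw [← eu]; nlinarith
    have j3 : cu * b ≤ cu * a := by gcongr
    have j4 : O k (uu l A g α k) ≤ (c₂ + cu) * a := by nlinarith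
    have j5 : N k (uu l A g α k) ≤ (c₂ + cu) * a := by nlinarith
    have j6 : N (k + 1) (eta l A g α (k + 1) - S k (uu l A g α k)) ≤ τ * b := by
      refine (hg.g_N k _ (j4.trans s1') (j5.trans s1')).trans ?_
      have : B * (O k (uu l A g α k) + N k (uu l A g α k)) * N k (uu l A g α k) ≤ τ / 2 * b := by
        calc _ ≤ B * ((c₂ + cu) * a + (c₂ + cu) * a) * (cu * b) := by gcongr
          _ = 4 * B * (c₂ + cu) * cu * a / 2 * b := by ring
          _ ≤ _ := by gcongr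
      linarith
    have j7 : τ * b ≤ b := mul_le_of_le_one_left hb0 hτ
    refine ⟨j4.trans s1', j5.trans s1', j6, ?_, ?_⟩
    · have e : eta l A g α (k + 1) = Rm S l A k (eta l A g α k) + S k (A k (α k)) +
          (eta l A g α (k + 1) - S k (uu l A g α k)) := by rw [S_uu]; abel
      rw [e]
      refine (map_add_le_add _ _ _).trans ((add_le_add ((map_add_le_add _ _ _).trans
        (add_le_add (h.contr k (eta l A g α k)) (SA_N h _ _))) j6).trans ?_)
      have a1 : θ * N k (eta l A g α k) ≤ θ * (c₁ * b) := by gcongr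
      have a2 : B ^ 2 * ‖α k‖ ≤ B ^ 2 * b := by gcongr
      have a3 : c₁ * (b * r) = θ * (c₁ * b) + B ^ 2 * b + b := by linear_combination (-b) * e₁
      linarith
    · refine (hg.g_O k _ (j4.trans s1') (j5.trans s1')).trans ?_
      have a1 : B * N k (uu l A g α k) ≤ B * (cu * b) := by gcongr
      have a3 : c₂ * (a - b * r) = c₂ * (a - b) + cu * b + B * (cu * b) + b := by
        linear_combination (-b) * e₂
      linarith
  have inv : ∀ k, N k (eta l A g α k) ≤ c₁ * (a * r ^ k) ∧ O k (eta l A g α k) ≤ c₂ * (a - a * r ^ k) := by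
    intro k
    induction k with
    | zero => simp only [eta, map_zero, pow_zero, mul_one, sub_self, mul_zero, le_refl, and_true]; positivity
    | succ k ih => exact (step k ih.1 ih.2).2.2.2
  intro k
  obtain ⟨q1, q2, q3, -⟩ := step k (inv k).1 (inv k).2
  refine ⟨(inv k).1.trans ?_, q1, q2, by rwa [mul_assoc]⟩
  rw [mul_assoc]
  gcongr
  linarith

theorem duhamel {η y : ℕ → E} {e e' r : ℝ} (hr : 0 ≤ r) (he' : 0 ≤ e') (he : θ * e' + e ≤ e' * r)
    (hη : ∀ k, N (k + 1) (η (k + 1) - (Rm S l A k (η k) + y k)) ≤ e * r ^ k) (j m : ℕ) :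
    N (j + m) (η (j + m) - ∑ i ∈ Finset.range m, Pm S l A (j + i + 1) (m - 1 - i) (y (j + i))) ≤
      θ ^ m * N j (η j) + e' * r ^ (j + m) := by
  have h0 := h.θ_nonneg
  induction m with
  | zero => simp only [Finset.range_zero, Finset.sum_empty, sub_zero, pow_zero, one_mul, add_zero,
      le_add_iff_nonneg_right]; positivity
  | succ m ih =>
    have e1 : ∑ i ∈ Finset.range (m + 1), Pm S l A (j + i + 1) (m + 1 - 1 - i) (y (j + i)) =
        Rm S l A (j + m) (∑ i ∈ Finset.range m, Pm S l A (j + i + 1) (m - 1 - i) (y (j + i))) + y (j + m) := by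
      rw [Finset.sum_range_succ, map_sum, show m + 1 - 1 - m = 0 by omega]
      refine congrArg₂ _ (Finset.sum_congr rfl fun i hi => ?_) rfl
      have := Finset.mem_range.1 hi
      rw [show m + 1 - 1 - i = m - 1 - i + 1 by omega, Pm_succ, show j + i + 1 + (m - 1 - i) = j + m by omega]
    rw [e1]
    generalize ∑ i ∈ Finset.range m, Pm S l A (j + i + 1) (m - 1 - i) (y (j + i)) = Z at ih
    have e2 : η (j + (m + 1)) - (Rm S l A (j + m) Z + y (j + m)) = Rm S l A (j + m) (η (j + m) - Z) +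
        (η (j + m + 1) - (Rm S l A (j + m) (η (j + m)) + y (j + m))) := by
      rw [map_sub, ← add_assoc j m 1]; abel
    rw [e2]
    refine (map_add_le_add _ _ _).trans ((add_le_add ((h.contr (j + m) _).trans
      (mul_le_mul_of_nonneg_left ih h0)) (hη (j + m))).trans ?_)
    have := mul_le_mul_of_nonneg_right he (pow_nonneg hr (j + m))
    rw [← add_assoc j m 1, pow_succ r, pow_succ' θ]
    nlinarith

theorem cont_eta {g : ℕ → E → E} {μ r D : ℝ} (hg : GH N O L S g B ε μ r) {C : Set (ℕ → Fin d → ℝ)}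
    (hC : ∀ α ∈ C, ∀ k, N k (eta l A g α k) ≤ D ∧ O k (uu l A g α k) ≤ ε ∧ N k (uu l A g α k) ≤ ε)
    (k : ℕ) : ContinuousOn (fun α => l k (eta l A g α k)) C := by
  intro α hα
  have hl : ∀ k, Tendsto (fun β => L k (eta l A g β k - eta l A g α k)) (𝓝[C] α) (𝓝 0) →
      Tendsto (fun β => ‖l k (eta l A g β k - eta l A g α k)‖) (𝓝[C] α) (𝓝 0) := fun k =>
    l_small h (k := fun _ => k) (D := D + D) (by
      filter_upwards [self_mem_nhdsWithin] with β hβ
      exact (map_sub_le_add _ _ _).trans (add_le_add (hC β hβ k).1 (hC α hα k).1))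
  have key : ∀ k, Tendsto (fun β => L k (eta l A g β k - eta l A g α k)) (𝓝[C] α) (𝓝 0) := by
    intro k
    induction k with
    | zero => simpa only [eta, sub_self, map_zero] using tendsto_const_nhds
    | succ k ih =>
      have h1 : Tendsto (fun β : ℕ → Fin d → ℝ => ‖β k - α k‖) (𝓝[C] α) (𝓝 0) :=
        tendsto_iff_norm_sub_tendsto_zero.1 ((continuous_apply k).tendsto α |>.mono_left nhdsWithin_le_nhds)
      have h2 := (ih.add ((h1.add (hl k ih)).const_mul B)).const_mul B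
      simp only [add_zero, mul_zero] at h2
      refine squeeze_zero' (Eventually.of_forall fun β => apply_nonneg _ _) ?_ h2
      filter_upwards [self_mem_nhdsWithin] with β hβ
      refine (hg.g_L k _ _ (hC β hβ k).2.1 (hC β hβ k).2.2 (hC α hα k).2.1 (hC α hα k).2.2).trans
        (mul_le_mul_of_nonneg_left ?_ (B_nonneg h))
      have e : uu l A g β k - uu l A g α k = eta l A g β k - eta l A g α k +
          A k (β k - α k - l k (eta l A g β k - eta l A g α k)) := by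
        simp only [uu, map_sub]; abel
      rw [e]
      exact (L_corr h _ _ _).trans (add_le_add_right
        (mul_le_mul_of_nonneg_left (norm_sub_le _ _) (B_nonneg h)) _)
  refine tendsto_iff_norm_sub_tendsto_zero.2 ?_
  simpa only [map_sub] using hl k (key k)

end Crest.Agent.R213.D
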