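import Mathlib

/-! Row 213, block D: a matrix Wiener lemma (Laurent coefficients of the inverse symbol). -/

set_option autoImplicit false
open Set Metric Complex

noncomputable section
namespace Crest.Agent.R213.D

/-- Laurent coefficient -/
def cf (ρ : ℝ) (F : ℂ → ℂ) (n : ℤ) : ℂ :=
  (2 * Real.pi * I : ℂ)⁻¹ • ∮ z in C(0, ρ), z ^ (-n - 1) * F z

theorem ne_of_sphere {ρ : ℝ} (h : 0 < ρ) {z : ℂ} (hz : z ∈ sphere (0 : ℂ) ρ) : z ≠ 0 := by
  rintro rfl
  simp at hz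
  linarith

theorem cf_le1 {ρ C : ℝ} (h : 0 < ρ) {F : ℂ → ℂ} (hC : ∀ z : ℂ, ‖z‖ = ρ → ‖F z‖ ≤ C) (n : ℤ) :
    ‖cf ρ F n‖ ≤ C * ρ ^ (-n) := by
  refine (circleIntegral.norm_two_pi_i_inv_smul_integral_le_of_norm_le_const
    (C := ρ ^ (-n - 1) * C) h.le fun z hz => ?_).trans (le_of_eq ?_)
  · have hz' : ‖z‖ = ρ := by simpa using hz
    rw [norm_mul, norm_zpow, hz']
    exact mul_le_mul_of_nonneg_left (hC z hz') (by positivity)
  · rw [zpow_sub_one₀ h.ne']
    field_simp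

theorem cf_le {ρ₁ ρ₂ r q C : ℝ} (h1 : 0 < ρ₁) (h12 : ρ₁ ≤ ρ₂) (hr : 0 < r) (hq1 : ρ₁ * r ≤ q)
    (hq2 : ρ₂⁻¹ ≤ r * q) {F : ℂ → ℂ} (hF : ∀ z : ℂ, ρ₁ ≤ ‖z‖ → ‖z‖ ≤ ρ₂ → DifferentiableAt ℂ F z)
    (hC : ∀ z : ℂ, ρ₁ ≤ ‖z‖ → ‖z‖ ≤ ρ₂ → ‖F z‖ ≤ C) (n : ℤ) :
    ‖cf ρ₁ F n‖ ≤ C * (r ^ n * q ^ n.natAbs) := by
  have h2 : 0 < ρ₂ := h1.trans_le h12
  have hC0 : 0 ≤ C := (norm_nonneg _).trans (hC ρ₁ (by simp [abs_of_pos h1]) (by simp [abs_of_pos h1, h12]))
  have hd : ∀ z : ℂ, ρ₁ ≤ ‖z‖ → ‖z‖ ≤ ρ₂ → DifferentiableAt ℂ (fun z => z ^ (-n - 1) * F z) z :=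
    fun z a b => (differentiableAt_zpow.2 (Or.inl (norm_pos_iff.1 (h1.trans_le a)))).mul (hF z a b)
  obtain ⟨k, rfl | rfl⟩ := n.eq_nat_or_neg
  · have e : cf ρ₁ F k = cf ρ₂ F k := by
      unfold cf
      rw [circleIntegral_eq_of_differentiable_on_annulus_off_countable h1 h12 countable_empty
        (fun z hz => (hd z (by simpa using hz.2) (by simpa using hz.1)).continuousAt.continuousWithinAt)
        (fun z hz => hd z (le_of_lt (by simpa using hz.1.2)) (le_of_lt (by simpa using hz.1.1)))]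
    rw [e]
    refine (cf_le1 h2 (fun z hz => hC z (hz ▸ h12) hz.le) _).trans (mul_le_mul_of_nonneg_left ?_ hC0)
    rw [Int.natAbs_natCast, zpow_neg, zpow_natCast, zpow_natCast, ← inv_pow, ← mul_pow]
    exact pow_le_pow_left₀ (by positivity) hq2 k
  · refine (cf_le1 h1 (fun z hz => hC z hz.ge (hz ▸ h12)) _).trans (mul_le_mul_of_nonneg_left ?_ hC0)
    rw [Int.natAbs_neg, Int.natAbs_natCast, neg_neg, zpow_neg, zpow_natCast, zpow_natCast, ← inv_pow,
      ← mul_pow]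
    refine pow_le_pow_left₀ h1.le ?_ k
    rw [le_inv_mul_iff₀ hr]
    linarith

theorem cf_comb {ρ : ℝ} (h : 0 < ρ) {ι : Type} (s : Finset ι) {F : ℂ → ℂ} (c0 : ℂ) (c : ι → ℂ)
    (e : ι → ℕ) {H : ι → ℂ → ℂ} (hF : ContinuousOn F (sphere 0 ρ))
    (hH : ∀ i, ContinuousOn (H i) (sphere 0 ρ)) (n : ℤ) :
    cf ρ (fun z => F z - c0 - ∑ i ∈ s, c i * z ^ e i * H i z) n =
      cf ρ F n - (if n = 0 then c0 else 0) - ∑ i ∈ s, c i * cf ρ (H i) (n - e i) := by
  have hz : ∀ k : ℤ, ContinuousOn (fun z : ℂ => z ^ k) (sphere 0 ρ) := fun k =>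
    continuousOn_id.zpow₀ k fun z hz => Or.inl (ne_of_sphere h hz)
  have i1 : CircleIntegrable (fun z => z ^ (-n - 1) * F z) 0 ρ :=
    ((hz _).mul hF).circleIntegrable h.le
  have i2 : CircleIntegrable (fun z : ℂ => c0 * z ^ (-n - 1)) 0 ρ :=
    (continuousOn_const.mul (hz _)).circleIntegrable h.le
  have i3 : ∀ i ∈ s, CircleIntegrable (fun z => c i * (z ^ (-(n - e i) - 1) * H i z)) 0 ρ :=
    fun i _ => (continuousOn_const.mul ((hz _).mul (hH i))).circleIntegrable h.le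
  have i4 : CircleIntegrable (fun z => ∑ i ∈ s, c i * (z ^ (-(n - e i) - 1) * H i z)) 0 ρ :=
    (continuousOn_finsetSum s fun i _ => continuousOn_const.mul ((hz _).mul (hH i))).circleIntegrable h.le
  have e0 : (2 * Real.pi * I : ℂ)⁻¹ * ∮ z in C(0, ρ), c0 * z ^ (-n - 1) = if n = 0 then c0 else 0 := by
    rw [circleIntegral.integral_const_mul]
    split_ifs with hn
    · have := circleIntegral.integral_sub_center_inv (0 : ℂ) h.ne'
      simp only [sub_zero] at this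
      simp only [hn, neg_zero, zero_sub, zpow_neg, zpow_one, this]
      have : (2 * Real.pi * I : ℂ) ≠ 0 := two_pi_I_ne_zero
      field_simp
    · have := circleIntegral.integral_sub_zpow_of_ne (n := -n - 1) (by omega) 0 0 ρ
      simp only [sub_zero] at this
      rw [this, mul_zero, mul_zero]
  have i5 : CircleIntegrable (fun z => z ^ (-n - 1) * F z - c0 * z ^ (-n - 1)) 0 ρ := i1.sub i2
  unfold cf
  rw [circleIntegral.integral_congr h.le (g := fun z => z ^ (-n - 1) * F z - c0 * z ^ (-n - 1) -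
      ∑ i ∈ s, c i * (z ^ (-(n - e i) - 1) * H i z)) fun z hz => ?_,
    circleIntegral.integral_sub i5 i4, circleIntegral.integral_sub i1 i2,
    circleIntegral.integral_fun_sum i3]
  · rw [← e0]
    simp only [smul_eq_mul, mul_sub, Finset.mul_sum, circleIntegral.integral_const_mul]
    congr 1
    exact Finset.sum_congr rfl fun i _ => by ring
  · simp only [mul_sub, Finset.mul_sum]
    congr 1
    · ring
    · refine Finset.sum_congr rfl fun i _ => ?_
      rw [show -(n - e i) - 1 = -n - 1 + e i by ring, zpow_add₀ (ne_of_sphere h hz), zpow_natCast]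
      ring

theorem det_diff {d : ℕ} {M : ℂ → Matrix (Fin d) (Fin d) ℂ} {z : ℂ}
    (h : ∀ a b, DifferentiableAt ℂ (fun z => M z a b) z) :
    DifferentiableAt ℂ (fun z => (M z).det) z := by
  simp only [Matrix.det_apply']
  exact DifferentiableAt.fun_sum fun σ _ =>
    (DifferentiableAt.fun_finsetProd fun i _ => h _ _).const_mul _

theorem inv_diff {d : ℕ} {M : ℂ → Matrix (Fin d) (Fin d) ℂ} {z : ℂ}
    (h : ∀ a b, DifferentiableAt ℂ (fun z => M z a b) z) (h0 : (M z).det ≠ 0) (a b : Fin d) :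
    DifferentiableAt ℂ (fun z => (M z)⁻¹ a b) z := by
  simp only [Matrix.inv_def, Ring.inverse_eq_inv, Matrix.smul_apply, smul_eq_mul, Matrix.adjugate_apply]
  refine ((det_diff h).inv h0).mul (det_diff fun i j => ?_)
  simp only [Matrix.updateRow_apply]
  split_ifs
  · exact differentiableAt_const _
  · exact h _ _

theorem exists_gap {Z : Set ℝ} (hZ : Z.Finite) {a b : ℝ} (h : a < b) :
    ∃ x p y, a < x ∧ x < p ∧ p < y ∧ y < b ∧ ∀ z ∈ Z, ¬ (x ≤ z ∧ z ≤ y) := by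
  obtain ⟨p, hp⟩ := ((Ioo_infinite h).sdiff hZ).nonempty
  obtain ⟨l, u, h1, h2⟩ := mem_nhds_iff_exists_Ioo_subset.1
    ((isOpen_Ioo.sdiff hZ.isClosed).mem_nhds hp)
  have hx : (l + p) / 2 ∈ Ioo l u := ⟨by linarith [h1.1], by linarith [h1.1, h1.2]⟩
  have hy : (p + u) / 2 ∈ Ioo l u := ⟨by linarith [h1.1, h1.2], by linarith [h1.2]⟩
  exact ⟨_, p, _, (h2 hx).1.1, by linarith [h1.1], by linarith [h1.2], (h2 hy).1.2,
    fun z hz hh => (h2 ⟨hx.1.trans_le hh.1, hh.2.trans_lt hy.2⟩).2 hz⟩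

theorem wiener {d : ℕ} (g : ℕ → Matrix (Fin d) (Fin d) ℝ) {D θ : ℝ} (h0 : 0 ≤ θ) (h1 : θ < 1)
    (hg : ∀ m a b, |g m a b| ≤ D * θ ^ m) (hD : 0 ≤ D) :
    ∃ r q t C : ℝ, θ < r ∧ r < 1 ∧ 0 ≤ q ∧ q < 1 ∧ 0 ≤ t ∧ t < 1 ∧ 0 ≤ C ∧
      ∃ W : ℤ → Matrix (Fin d) (Fin d) ℝ, (∀ n a b, |W n a b| ≤ C * (r ^ n * q ^ n.natAbs)) ∧
        ∀ (M : ℕ) n a b, |(W n - (if n = 0 then 1 else 0) -
          ∑ m ∈ Finset.range M, g m * W (n - (m + 1 : ℕ))) a b| ≤ C * t ^ M * (r ^ n * q ^ n.natAbs) := by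
  obtain ⟨ρ, hρ1, hρ2⟩ : ∃ ρ : ℝ, 1 < ρ ∧ θ * ρ < 1 :=
    ⟨2 / (1 + θ), by rw [lt_div_iff₀ (by linarith)]; linarith,
      by rw [← mul_div_assoc, div_lt_one (by linarith)]; linarith⟩
  have ht0 : 0 ≤ θ * ρ := by positivity
  have hb : ∀ m a b, ∀ z ∈ ball (0 : ℂ) ρ, ‖(g m a b : ℂ) * z ^ (m + 1)‖ ≤ D * ρ * (θ * ρ) ^ m := by
    intro m a b z hz
    rw [norm_mul, norm_real, norm_pow]
    have : ‖z‖ ≤ ρ := le_of_lt (by simpa using hz)
    calc _ ≤ D * θ ^ m * ρ ^ (m + 1) := mul_le_mul (hg m a b) (by gcongr) (by positivity) (by positivity)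
      _ = _ := by ring
  have hs := (hasSum_geometric_of_lt_one ht0 hρ2).mul_left (D * ρ)
  set Am : ℂ → Matrix (Fin d) (Fin d) ℂ :=
    fun z => 1 - Matrix.of fun a b => ∑' m, (g m a b : ℂ) * z ^ (m + 1) with hAm
  have hA : ∀ z ∈ ball (0 : ℂ) ρ, ∀ a b, DifferentiableAt ℂ (fun z => Am z a b) z := by
    intro z hz a b
    exact ((differentiableOn_tsum_of_summable_norm hs.summable (fun m => by fun_prop) isOpen_ball
      (fun m => hb m a b)).differentiableAt (isOpen_ball.mem_nhds hz)).const_sub _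
  have hsub : closedBall (0 : ℂ) ((1 + ρ) / 2) ⊆ ball 0 ρ := closedBall_subset_ball (by linarith)
  have han : AnalyticOnNhd ℂ (fun z => (Am z).det) (closedBall 0 ((1 + ρ) / 2)) :=
    (DifferentiableOn.analyticOnNhd (fun z hz => (det_diff (hA z hz)).differentiableWithinAt)
      isOpen_ball).mono hsub
  have hfin := (isCompact_closedBall (0 : ℂ) ((1 + ρ) / 2)).finite_sdiff_of_mem_codiscreteWithin
    (han.preimage_zero_mem_codiscreteWithin (x := 0) (by
      have : Am 0 = 1 := by ext a b; simp [hAm]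
      simp [this]) (mem_closedBall_self (by linarith))
      ((convex_closedBall _ _).isConnected ⟨0, mem_closedBall_self (by linarith)⟩))
  obtain ⟨x, p, y, g1, g2, g3, g4, g5⟩ := exists_gap (hfin.image norm) (show 1 < (1 + ρ) / 2 by linarith)
  have hx0 : 0 < x := by linarith
  have hp0 : 0 < p := by linarith
  have hy0 : 0 < y := by linarith
  have hball : ∀ z : ℂ, ‖z‖ ≤ y → z ∈ ball (0 : ℂ) ρ := fun z hz => by simp; linarith
  have hdet : ∀ z : ℂ, x ≤ ‖z‖ → ‖z‖ ≤ y → (Am z).det ≠ 0 := fun z a b h =>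
    g5 _ ⟨z, ⟨by simp; linarith, by simp [h]⟩, rfl⟩ ⟨a, b⟩
  have hB : ∀ a b, ∀ z : ℂ, x ≤ ‖z‖ → ‖z‖ ≤ y → DifferentiableAt ℂ (fun z => (Am z)⁻¹ a b) z :=
    fun a b z u v => inv_diff (hA z (hball z v)) (hdet z u v) a b
  obtain ⟨C, hC⟩ := ((isCompact_closedBall (0 : ℂ) y).diff isOpen_ball (t := ball 0 x)).exists_bound_of_continuousOn
    (f := fun z (ab : Fin d × Fin d) => (Am z)⁻¹ ab.1 ab.2) (continuousOn_pi.2 fun ab z hz =>
      (hB _ _ z (by simpa using hz.2) (by simpa using hz.1)).continuousAt.continuousWithinAt)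
  have hC' : ∀ a b, ∀ z : ℂ, x ≤ ‖z‖ → ‖z‖ ≤ y → ‖(Am z)⁻¹ a b‖ ≤ |C| := fun a b z u v =>
    ((norm_le_pi_norm (fun ab : Fin d × Fin d => (Am z)⁻¹ ab.1 ab.2) (a, b)).trans
      (hC z ⟨by simpa using v, by simpa using u⟩)).trans (le_abs_self C)
  have hq1 : x * p⁻¹ ≤ max (x / p) (p / y) := le_max_left _ _
  have hq2 : y⁻¹ ≤ p⁻¹ * max (x / p) (p / y) := by
    rw [le_inv_mul_iff₀ (by positivity)]
    exact le_max_right _ _
  have hq0 : 0 ≤ max (x / p) (p / y) := le_max_of_le_left (by positivity)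
  have hinv : 0 ≤ (1 - θ * ρ)⁻¹ := inv_nonneg.2 (by linarith)
  refine ⟨p⁻¹, max (x / p) (p / y), θ * ρ, (1 + d * (D * ρ * (1 - θ * ρ)⁻¹)) * |C|, ?_,
    inv_lt_one_of_one_lt₀ (by linarith), hq0,
    max_lt ((div_lt_one hp0).2 g2) ((div_lt_one hy0).2 g3), ht0, hρ2, by positivity,
    fun n => Matrix.of fun a b => (cf x (fun z => (Am z)⁻¹ a b) n).re, fun n a b => ?_, fun M n a b => ?_⟩
  · rw [← one_div, lt_div_iff₀ hp0]
    nlinarith
  · refine (abs_re_le_norm _).trans ((cf_le hx0 (by linarith) (by positivity) hq1 hq2 (hB a b)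
      (hC' a b) n).trans (mul_le_mul_of_nonneg_right ?_ (by positivity)))
    have : 0 ≤ d * (D * ρ * (1 - θ * ρ)⁻¹) * |C| := by positivity
    linarith
  · have hc : ∀ a b, ContinuousOn (fun z => (Am z)⁻¹ a b) (sphere 0 x) := fun a b z hz =>
      (hB a b z (le_of_eq (by simpa using Eq.symm hz))
        (le_trans (le_of_eq (by simpa using hz)) (by linarith : x ≤ y))).continuousAt.continuousWithinAt
    have e := cf_comb hx0 (Finset.range M ×ˢ Finset.univ) ((1 : Matrix (Fin d) (Fin d) ℝ) a b)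
      (fun i : ℕ × Fin d => (g i.1 a i.2 : ℂ)) (fun i => i.1 + 1) (hc a b) (fun i => hc i.2 b) n
    have e2 := congrArg re e
    have e3 := cf_le (C := d * (D * ρ * (1 - θ * ρ)⁻¹ * (θ * ρ) ^ M * |C|)) hx0 (by linarith : x ≤ y)
      (by positivity) hq1 hq2 (F := fun z => (Am z)⁻¹ a b - ((1 : Matrix (Fin d) (Fin d) ℝ) a b : ℝ) -
        ∑ i ∈ Finset.range M ×ˢ Finset.univ, (g i.1 a i.2 : ℂ) * z ^ (i.1 + 1) * (Am z)⁻¹ i.2 b)
      (fun z u v => ((hB a b z u v).sub_const _).sub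
        (DifferentiableAt.fun_sum fun i _ => DifferentiableAt.mul (by fun_prop) (hB _ _ z u v)))
      (fun z u v => by
        have k1 := congrFun (congrFun (Matrix.mul_nonsing_inv (Am z) (hdet z u v).isUnit) a) b
        have k2 : ∀ c, Summable fun m => (g m a c : ℂ) * z ^ (m + 1) := fun c =>
          Summable.of_norm_bounded hs.summable fun m => hb m a c z (hball z v)
        have k3 : (Am z)⁻¹ a b - ((1 : Matrix (Fin d) (Fin d) ℝ) a b : ℝ) -
            ∑ i ∈ Finset.range M ×ˢ Finset.univ, (g i.1 a i.2 : ℂ) * z ^ (i.1 + 1) * (Am z)⁻¹ i.2 b =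
            ∑ c, (∑' m, (g (m + M) a c : ℂ) * z ^ (m + M + 1)) * (Am z)⁻¹ c b := by
          have k4 : (((1 : Matrix (Fin d) (Fin d) ℝ) a b : ℝ) : ℂ) = (1 : Matrix (Fin d) (Fin d) ℂ) a b := by
            simp only [Matrix.one_apply]; split_ifs <;> simp
          rw [k4, ← k1]
          generalize (Am z)⁻¹ = Bz
          rw [hAm]
          simp only
          rw [Matrix.sub_mul, Matrix.one_mul, Matrix.sub_apply, sub_sub_cancel, Matrix.mul_apply,
            Finset.sum_product_right, ← Finset.sum_sub_distrib]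
          refine Finset.sum_congr rfl fun c _ => ?_
          rw [Matrix.of_apply, ← (k2 c).sum_add_tsum_nat_add M, add_mul, Finset.sum_mul,
            add_sub_cancel_left]
        rw [k3]
        refine (norm_sum_le _ _).trans ((Finset.sum_le_card_nsmul _ _ _ fun c _ => ?_).trans
          (le_of_eq (by rw [Finset.card_univ, Fintype.card_fin, nsmul_eq_mul])))
        rw [norm_mul]
        refine mul_le_mul ?_ (hC' c b z u v) (norm_nonneg _) (by positivity)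
        refine tsum_of_norm_bounded (hs.mul_right ((θ * ρ) ^ M)) fun m => ?_
        refine (hb (m + M) a c z (hball z v)).trans (le_of_eq ?_)
        rw [pow_add, mul_assoc (D * ρ)]) n
    refine le_trans (le_of_eq ?_) (((abs_re_le_norm _).trans e3).trans
      (mul_le_mul_of_nonneg_right ?_ (by positivity)))
    · rw [e2, Finset.sum_product]
      simp only [Matrix.sub_apply, Matrix.of_apply, Matrix.sum_apply, Matrix.mul_apply, sub_re, re_sum,
        re_ofReal_mul]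
      congr 3
      split_ifs <;> simp
    · have : 0 ≤ |C| * (θ * ρ) ^ M := by positivity
      nlinarith

end Crest.Agent.R213.D
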